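import Vale.Agent.P088.H198.K.Defs
import Vale.Agent.P088.H738.E2.Defs

/-!
# P088, theorem G: joint uniqueness on a smooth domain, the second metric semi-global: rows

Base pair near `(e, 0)`; second pair `(g, A₂)`: `g` bounded with all derivatives and `C^0`-near the
conformal class of `e` (conformal factor arbitrary), `A₂` small. From `K.RowFIN` (theorem JB),
`E2.RowISO` and compactness.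
-/

open MeasureTheory Set Filter Topology
open scoped ContDiff Matrix

noncomputable section

namespace Vale.Agent.P088.LR.G

open Vale.Agent.P088.LR Vale.Agent.P088.LR.B Vale.Agent.P088.LR.CF Vale.Agent.P088.LR.U
  Vale.Agent.P088.LR.H158 Vale.Agent.P088.H639

variable {n N : ℕ}

/-- `K.Dat` and solvability of the Dirichlet problem for the first pair. -/
def DatS (Ω : Set (V n)) (s₁ : MF n) (A₁ : Cn n N) (s₂ : MF n) (A₂ : Cn n N) : Prop :=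
  K.Dat Ω s₁ A₁ s₂ A₂ ∧ ∀ f : V n → Fin N → ℂ, ContDiff ℝ ∞ f → ∃ u : V n → Fin N → ℂ,
    ContDiff ℝ ∞ u ∧ (∀ x ∈ frontier Ω, u x = f x) ∧ ∀ x ∈ Ω, lav s₁ A₁ u x = 0

/-- (G_DAT) equal Dirichlet-to-Neumann forms give `DatS`. -/
def RowDAT : Prop := ∀ {n N : ℕ} (Ω : Set (V n)), IsOpen Ω → Bornology.IsBounded Ω →
  ∀ g₁ g₂ : MF n, SmM g₁ → SmM g₂ → (∀ x, (g₁ x).PosDef) → (∀ x, (g₂ x).PosDef) →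
  ∀ A₁ A₂ : Cn n N, SmU A₁ → SmU A₂ → SDU Ω g₁ A₁ g₂ A₂ → DatS Ω (sg g₁) A₁ (sg g₂) A₂

/-- (G_EN) if `s_i m → ψ_i · 1` and `A_i m → 0` uniformly on the domain and the data are equal for
every `m`, the scalar energies of `ψ₁ · 1` and `ψ₂ · 1` are equal. -/
def RowEN : Prop := ∀ {n N : ℕ}, 3 ≤ n → 1 ≤ N → ∀ ρ : V n → ℝ, Dom ρ →
  ∀ (s₁ s₂ : ℕ → MF n) (A₁ A₂ : ℕ → Cn n N) (ψ₁ ψ₂ : V n → ℝ) (μ : ℝ),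
  (∀ m, SmM (s₁ m)) → (∀ m, SmM (s₂ m)) → (∀ m x, (s₁ m x).IsSymm) → (∀ m x, (s₂ m x).IsSymm) →
  (∀ m, SmU (A₁ m)) → (∀ m, SmU (A₂ m)) → ContDiff ℝ ∞ ψ₁ → ContDiff ℝ ∞ ψ₂ → 0 < μ →
  (∀ x ∈ Om ρ, μ ≤ ψ₁ x) → (∀ x ∈ Om ρ, μ ≤ ψ₂ x) →
  (∀ ε > 0, ∃ M : ℕ, ∀ m ≥ M, ∀ x ∈ Om ρ, ∀ i j, |s₁ m x i j - sc ψ₁ x i j| ≤ ε) →
  (∀ ε > 0, ∃ M : ℕ, ∀ m ≥ M, ∀ x ∈ Om ρ, ∀ i j, |s₂ m x i j - sc ψ₂ x i j| ≤ ε) →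
  (∀ ε > 0, ∃ M : ℕ, ∀ m ≥ M, ∀ x ∈ Om ρ, ∀ i α β, ‖A₁ m i x α β‖ ≤ ε) →
  (∀ ε > 0, ∃ M : ℕ, ∀ m ≥ M, ∀ x ∈ Om ρ, ∀ i α β, ‖A₂ m i x α β‖ ≤ ε) →
  (∀ m, DatS (Om ρ) (s₁ m) (A₁ m) (s₂ m) (A₂ m)) → SE (Om ρ) (sc ψ₁) (sc ψ₂)

/-- (G_FIN) the theorem in the ball, tensor form. -/
def RowFIN : Prop := ∀ (n N : ℕ), 3 ≤ n → 1 ≤ N → ∀ ρ : V n → ℝ, Dom ρ →
  (∀ x ∉ bls n, ρ x = -1) → ∀ B : ℕ → ℝ, ∃ (k : ℕ) (ε : ℝ), 0 < ε ∧ ∀ σ : V n → ℝ, SmP σ →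
  (∀ x ∉ bal n, σ x = 1) → Cl k ε (fun x => σ x - 1) → ∀ (s : MF n) (ψ : V n → ℝ) (t : MF n),
  E.Nc k B ε s ψ t → ∀ A₁ A₂ : Cn n N, SmU A₁ → SmU A₂ → (∀ i, ∀ x ∉ bal n, A₁ i x = 0) →
  (∀ i, ClC k ε (A₁ i)) → (∀ i, ClC k ε (A₂ i)) → DatS (Om ρ) (sc σ) A₁ s A₂ →
  ∃ (Φ Ψ : V n → V n) (U : MC n N), ContDiff ℝ ∞ Φ ∧
    ContDiff ℝ ∞ Ψ ∧ (∀ x, Ψ (Φ x) = x) ∧ (∀ y, Φ (Ψ y) = y) ∧ (∀ x, ρ x = 0 → Φ x = x) ∧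
    (∀ x, 0 < ρ (Φ x) ↔ 0 < ρ x) ∧ (∀ x, 0 < (Jm Φ x).det) ∧
    (∀ x, 0 ≤ ρ x → (Jm Φ x).det⁻¹ • (Jm Φ x * s x * (Jm Φ x)ᵀ) = sc σ (Φ x)) ∧ SmC U ∧
    (∀ x, (U x)ᴴ * U x = 1) ∧ (∀ x, ρ x = 0 → U x = 1) ∧
    ∀ i x, 0 < ρ x → A₂ i x = (U x)ᴴ * pbF Φ A₁ i x * U x + (U x)ᴴ * pdm i U x

/-- **Joint uniqueness on every smooth bounded domain, no condition at the boundary, the second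
metric only bounded and `C^0`-near the conformal class of `e`.** -/
def FinG : Prop := ∀ n N : ℕ, 3 ≤ n → 1 ≤ N → ∀ ρ : V n → ℝ, SDom ρ → ∀ B : ℕ → ℝ,
  ∃ (k : ℕ) (ε : ℝ), 0 < ε ∧ ∀ (c : V n → ℝ) (g : MF n), ContDiff ℝ ∞ c → (∀ x, 0 < c x) →
  SmM g → (∀ x, (g x).PosDef) → Cl k ε (fun x => c x - 1) →
  (∀ i j, E.Cb k B (fun x => g x i j)) → (∀ x, (B 0)⁻¹ ≤ (g x).det) →
  (∀ i j x, |g x i j - sc (fun x => (g x).det ^ (1 / (n : ℝ))) x i j| ≤ ε) →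
  ∀ A₁ A₂ : Cn n N, SmU A₁ → SmU A₂ →
  (∀ i, ClC k ε (A₁ i)) → (∀ i, ClC k ε (A₂ i)) → SDU (Om ρ) (sc c) A₁ g A₂ →
  ∃ (Φ Ψ : V n → V n) (U : MC n N), ContDiff ℝ ∞ Φ ∧ ContDiff ℝ ∞ Ψ ∧
    (∀ x, Ψ (Φ x) = x) ∧ (∀ y, Φ (Ψ y) = y) ∧ (∀ x, ρ x = 0 → Φ x = x) ∧
    (∀ x, 0 < ρ (Φ x) ↔ 0 < ρ x) ∧ (∀ x, 0 < (Jm Φ x).det) ∧
    (∀ x, 0 ≤ ρ x → g x = c (Φ x) • ((Jm Φ x)ᵀ * Jm Φ x)) ∧ Gau (Om ρ) U (pbF Φ A₁) A₂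

/-- (G_TOP) scaling, cut-off, metric to tensor (798's KTop and 924's ESc). -/
def RowTOP : Prop := RowDAT → RowFIN → FinG

end Vale.Agent.P088.LR.G
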