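import Vale.Agent.P088.H738.G.Top2
import Vale.Agent.P088.H738.E2.All
import Vale.Agent.P088.H72.K.All
import Vale.Agent.P088.H639.KConF
import Vale.Agent.P088.H873.GDat
import Vale.Agent.P088.H292.GEn

/-!
# P088, theorem JE: all rows plugged in
-/

open MeasureTheory Set
open scoped ContDiff Matrix

noncomputable section

namespace Vale.Agent.P088.LR.G

open Vale.Agent.P088.LR Vale.Agent.P088.LR.B Vale.Agent.P088.LR.CF Vale.Agent.P088.LR.U

/-- Joint uniqueness on a smooth domain in the ball, tensor form, both pairs near `(e, 0)`. -/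
theorem rowFINK (hCON : K.RowCON) : K.RowFIN :=
  K.H738.finK H873.topo H501B.rowBOREL BX.map H292.ext H873.exc K.H158.mp K72.tg
    H947.KG.ga K.H378.gs H535.smk (H397.KI.kinf H641.rowHAD (H607.K.bdK hCON K.en) H873.topo)
    fun n N hn hN => H207.L.rigU n N (by omega) hN

/-- **Theorem JE** over the row EN. -/
theorem finJE_of_en (hCON : K.RowCON) (hEN : G.RowEN) : JE.FinJE :=
  Vale.Agent.P088.H738.GT.top2 G.H873.dat
    (finG2 (rowFINK hCON) E2.rowISO_all H442.AA.rowAA hEN H323.rowIN H873.topo)

/-- **Theorem JE**: joint uniqueness on every smooth bounded domain, no condition at the boundary,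
the second metric and the second connection only bounded and `C^0`-near. -/
theorem finJE : JE.FinJE := finJE_of_en H639.KC.rowCONK H292.GEn.gen

end Vale.Agent.P088.LR.G
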