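import Vale.Agent.P088.H738.G.Fin

/-!
# P088, theorem G: the assembly, second connection bounded and `C^0`-small
-/

open MeasureTheory Set Filter Topology
open scoped ContDiff Matrix

noncomputable section

namespace Vale.Agent.P088.LR.G

open Vale.Agent.P088.LR Vale.Agent.P088.LR.B Vale.Agent.P088.LR.CF Vale.Agent.P088.LR.U
  Vale.Agent.P088.LR.H158 Vale.Agent.P088.H639
open Vale.Agent.P088.LR.E2 (cl_mulR cl_const cb_cl posDef_near)
open Vale.Agent.P088.LR.E (Cb)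
open Vale.Agent.P088.LR.CD.H738 (cl_mono cl_cx cl_add exists_cl interp)

variable {n N : ℕ}

/-- The theorem in the ball, tensor form: `A₂` bounded and `C^0`-small. -/
def RowFIN2 : Prop := ∀ (n N : ℕ), 3 ≤ n → 1 ≤ N → ∀ ρ : V n → ℝ, Dom ρ →
  (∀ x ∉ bls n, ρ x = -1) → ∀ B : ℕ → ℝ, ∃ (k : ℕ) (ε : ℝ), 0 < ε ∧ ∀ σ : V n → ℝ, SmP σ →
  (∀ x ∉ bal n, σ x = 1) → Cl k ε (fun x => σ x - 1) → ∀ (s : MF n) (ψ : V n → ℝ) (t : MF n),
  E.Nc k B ε s ψ t → ∀ A₁ A₂ : Cn n N, SmU A₁ → SmU A₂ → (∀ i, ∀ x ∉ bal n, A₁ i x = 0) →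
  (∀ i, ClC k ε (A₁ i)) →
  (∀ i α β, ∀ l ≤ k, ∀ x, ‖iteratedFDeriv ℝ l (fun x => A₂ i x α β) x‖ ≤ B l) →
  (∀ i x α β, ‖A₂ i x α β‖ ≤ ε) → DatS (Om ρ) (sc σ) A₁ s A₂ → Cg ρ σ s A₁ A₂

/-- `Dat` only sees the values in `Ω`. -/
theorem dat_congr2 {Ω : Set (V n)} (hO : IsOpen Ω) {s₁ s s' : MF n} {A₁ A A' : Cn n N}
    (h : ∀ x ∈ Ω, s' x = s x) (hA : ∀ i, ∀ x ∈ Ω, A' i x = A i x)
    (hD : K.Dat Ω s₁ A₁ s A) : K.Dat Ω s₁ A₁ s' A' := by
  refine ⟨K.H738.orU_congr hO h hA hD.1, fun u hu hu0 => ?_⟩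
  obtain ⟨v, hv, hvu, hv0, he⟩ := hD.2 u hu hu0
  refine ⟨v, hv, hvu, fun x hx => ?_, ?_⟩
  · rw [K.H738.lav_congr hO h hA v hx]
    exact hv0 x hx
  · rw [K.H738.ea_congr hO h hA v v]
    exact he

theorem cl_mulC {k : ℕ} {A B : ℝ} {f g : V n → ℂ} (hf : ContDiff ℝ ∞ f) (hg : ContDiff ℝ ∞ g)
    (hA : Cl k A f) (hB : Cl k B g) : Cl k (2 ^ k * (A * B)) (fun x => f x * g x) := by
  intro l hl x
  have hA0 := E2.cl_nn hA
  have hB0 := E2.cl_nn hB
  have h1 := norm_iteratedFDeriv_mul_le (n := l) hf hg x (by exact_mod_cast le_top)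
  refine h1.trans ?_
  calc ∑ i ∈ Finset.range (l + 1), (l.choose i : ℝ) * ‖iteratedFDeriv ℝ i f x‖ *
        ‖iteratedFDeriv ℝ (l - i) g x‖
      ≤ ∑ i ∈ Finset.range (l + 1), (l.choose i : ℝ) * (A * B) := by
        refine Finset.sum_le_sum fun i hi => ?_
        have hi' : i ≤ l := by simpa [Nat.lt_succ_iff] using hi
        rw [mul_assoc]
        refine mul_le_mul_of_nonneg_left ?_ (by positivity)
        exact mul_le_mul (hA i (hi'.trans hl) x) (hB (l - i) (by omega) x) (norm_nonneg _) hA0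
    _ = 2 ^ l * (A * B) := by
        rw [← Finset.sum_mul]
        congr 1
        exact_mod_cast Nat.sum_range_choose l
    _ ≤ 2 ^ k * (A * B) := by
        refine mul_le_mul_of_nonneg_right ?_ (by positivity)
        exact pow_le_pow_right₀ (by norm_num) hl

/-- **The assembly.** -/
theorem finG2 (hK : K.RowFIN) (hISO : E2.RowISO) (hAA : E2.RowAA) (hEN : G.RowEN)
    (hIN : CC.RowINC) (hT : RowTOPO) : RowFIN2 := by
  intro n N hn hN ρ hρ hρb0 B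
  have hρb : ∀ x ∉ bal n, ρ x = -1 := fun x hx => hρb0 x fun h => hx (bls_subset_bal738 h)
  obtain ⟨hO, hOc, hfr, hcl, hic, hde⟩ := hT ρ hρ
  have hcore : IsCompact (core n) := by
    have : core n = Set.Icc (fun _ => 1 / 4) (fun _ => 3 / 4) := by
      ext x
      simp only [core, mem_ofPred_eq, Set.mem_Icc, Pi.le_def]
      exact ⟨fun h => ⟨fun j => (h j).1, fun j => (h j).2⟩, fun h j => ⟨h.1 j, h.2 j⟩⟩
    rw [this]
    exact isCompact_Icc
  have hbd : Bornology.IsBounded (Om ρ) := hcore.isBounded.subset hOc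
  obtain ⟨kB, εB, hεB, hK⟩ := hK n N hn hN ρ hρ hρb0
  by_contra hcon
  have hcon' : ∀ m : ℕ, ∃ (σ : V n → ℝ) (s : MF n) (ψ : V n → ℝ) (t : MF n) (A₁ A₂ : Cn n N),
      (SmP σ ∧ (∀ x ∉ bal n, σ x = 1) ∧ Cl m (1 / ((m : ℝ) + 1)) (fun x => σ x - 1)) ∧
      E.Nc m B (1 / ((m : ℝ) + 1)) s ψ t ∧ (SmU A₁ ∧ SmU A₂ ∧ (∀ i, ∀ x ∉ bal n, A₁ i x = 0) ∧
      (∀ i, ClC m (1 / ((m : ℝ) + 1)) (A₁ i)) ∧
      (∀ i α β, ∀ l ≤ m, ∀ x, ‖iteratedFDeriv ℝ l (fun x => A₂ i x α β) x‖ ≤ B l) ∧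
      (∀ i x α β, ‖A₂ i x α β‖ ≤ 1 / ((m : ℝ) + 1))) ∧
      DatS (Om ρ) (sc σ) A₁ s A₂ ∧ ¬ Cg ρ σ s A₁ A₂ := by
    intro m
    by_contra h
    apply hcon
    refine ⟨m, 1 / ((m : ℝ) + 1), by positivity, fun σ hσ hσ1 hσc s ψ t hNc A₁ A₂ sA₁ sA₂ hA0 c₁ c₂ c₃
      hS => ?_⟩
    by_contra h2
    exact h ⟨σ, s, ψ, t, A₁, A₂, ⟨hσ, hσ1, hσc⟩, hNc, ⟨sA₁, sA₂, hA0, c₁, c₂, c₃⟩, hS, h2⟩
  choose σ s ψ t A₁ A₂ hσa hNc hAa hS hC using hcon'
  have hle : ∀ m : ℕ, ∀ ε > 0, ∃ M : ℕ, M ≥ m ∧ ∀ m' ≥ M, 1 / ((m' : ℝ) + 1) ≤ ε := by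
    intro m ε hε
    obtain ⟨M, hM⟩ := exists_nat_one_div_lt hε
    refine ⟨max M m, le_max_right _ _, fun m' hm' => ?_⟩
    have : (M : ℝ) ≤ (m' : ℝ) := by exact_mod_cast (le_max_left _ _).trans hm'
    exact (one_div_le_one_div_of_le (by positivity) (by linarith)).trans hM.le
  -- the cut-off
  obtain ⟨χ, hχs, hχ0, hχ1, hχone, hχz⟩ : ∃ χ : V n → ℝ, ContDiff ℝ ∞ χ ∧ (∀ x, 0 ≤ χ x) ∧
      (∀ x, χ x ≤ 1) ∧ (∀ x, 0 ≤ ρ x → χ x = 1) ∧ ∀ x ∉ bal n, χ x = 0 := by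
    refine ⟨fun x => Real.smoothTransition (3 * ρ x + 2),
      Real.smoothTransition.contDiff.comp ((contDiff_const.mul hρ.sm).add contDiff_const),
      fun x => Real.smoothTransition.nonneg _, fun x => Real.smoothTransition.le_one _,
      fun x hx => Real.smoothTransition.one_of_one_le (by linarith), fun x hx =>
        Real.smoothTransition.zero_of_nonpos (by rw [hρb x hx]; norm_num)⟩
  choose X hX1 hXc using fun l => exists_cl hχs 0 hχz l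
  have hχzc : ∀ x ∉ core n, χ x = 0 := fun x hx => hχz x fun h => hx (bal_subset_core442 h)
  obtain ⟨Y, hY⟩ : ∃ Y : ℕ → ℝ, ∀ l, Y l = ∑ i ∈ Finset.range (l + 1), |B i| + 1 :=
    ⟨_, fun _ => rfl⟩
  have hY1 : ∀ l, 1 ≤ Y l := fun l => by
    have := Finset.sum_nonneg (fun i (_ : i ∈ Finset.range (l + 1)) => abs_nonneg (B i))
    rw [hY]; linarith
  have hsub : ∀ (c : ℝ) (_ : |c| ≤ 1) (h : V n → ℝ) (m l : ℕ), ContDiff ℝ ∞ h → Cb m B h →
      l ≤ m → Cl l (Y l) (fun x => h x - c) := by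
    intro c hc h m l hh hb hl
    have h1 := cl_add hh contDiff_const (cb_cl hb hl) (cl_const l (-c))
    rw [hY]
    refine cl_mono (l := l) (a := ∑ i ∈ Finset.range (l + 1), |B i| + ‖-c‖) (f := _) ?_ le_rfl ?_
    · exact h1
    · rw [norm_neg, Real.norm_eq_abs]; linarith
  have hcut : ∀ (c : ℝ) (_ : |c| ≤ 1) (h : V n → ℝ) (m l : ℕ), ContDiff ℝ ∞ h → Cb m B h →
      l ≤ m → Cl l (2 ^ l * (X l * Y l)) (fun x => χ x * (h x - c)) := by
    intro c hc h m l hh hb hl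
    exact cl_mulR hχs (hh.sub contDiff_const) (hXc l) (hsub c hc h m l hh hb hl)
  obtain ⟨f, hf⟩ : ∃ f : ℕ → V n → ℝ, ∀ m x, f m x = χ x * (ψ m x - 1) := ⟨_, fun _ _ => rfl⟩
  have hfe : ∀ m, f m = fun x => χ x * (ψ m x - 1) := fun m => funext (hf m)
  have hfs : ∀ m, ContDiff ℝ ∞ (f m) := fun m => by
    rw [hfe]; exact hχs.mul ((hNc m).pψ.1.sub contDiff_const)
  have hfcl : ∀ m l, l ≤ m → Cl l (2 ^ l * (X l * Y l)) (f m) := fun m l hl => by
    rw [hfe]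
    exact hcut 1 (by simp) (ψ m) m l (hNc m).pψ.1 (hNc m).bψ hl
  obtain ⟨φ, g, hφ, hgs, hg0, hgc⟩ := hAA (by omega) (fun l => 2 ^ l * (X l * Y l)) f hfs
    (fun m x hx => by rw [hf, hχzc x hx, zero_mul]) (fun m l hl x => hfcl m l hl l le_rfl x)
  have hφm : ∀ m, m ≤ φ m := fun m => hφ.le_apply
  have hgu : ∀ ε > 0, ∃ M : ℕ, ∀ m ≥ M, ∀ x, |f (φ m) x - g x| ≤ ε := by
    intro ε hε
    obtain ⟨M, hM⟩ := hgc 0 ε hε
    refine ⟨M, fun m hm x => ?_⟩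
    have h := hM m hm 0 le_rfl x
    rwa [norm_iteratedFDeriv_zero, Real.norm_eq_abs] at h
  have hB0 : 0 < B 0 := lt_of_lt_of_le (inv_pos.2 ((hNc 0).pψ.2 0)) ((hNc 0).iψ 0)
  have hψlo : ∀ m x, (B 0)⁻¹ ≤ ψ m x := fun m x =>
    (inv_le_comm₀ ((hNc m).pψ.2 x) hB0).1 ((hNc m).iψ x)
  have hψhi : ∀ m x, ψ m x ≤ B 0 := fun m x => by
    have h := (hNc m).bψ 0 (Nat.zero_le _) x
    rw [norm_iteratedFDeriv_zero, Real.norm_eq_abs] at h
    exact (le_abs_self _).trans h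
  obtain ⟨μ, hμe⟩ : ∃ μ : ℝ, μ = min 1 (B 0)⁻¹ := ⟨_, rfl⟩
  have hμ : 0 < μ := hμe ▸ lt_min one_pos (inv_pos.2 hB0)
  have hμ1 : μ ≤ 1 := hμe ▸ min_le_left _ _
  have hμ2 : μ ≤ (B 0)⁻¹ := hμe ▸ min_le_right _ _
  have hflo : ∀ m x, μ ≤ 1 + f m x := by
    intro m x
    rw [hf]
    have h1 := hμ2.trans (hψlo m x)
    nlinarith [hχ0 x, hχ1 x, mul_nonneg (hχ0 x) (sub_nonneg.2 h1),
      mul_nonneg (sub_nonneg.2 (hχ1 x)) (sub_nonneg.2 hμ1)]
  have hglo : ∀ x, μ ≤ 1 + g x := by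
    intro x
    refine le_of_forall_pos_le_add fun ε hε => ?_
    obtain ⟨M, hM⟩ := hgu ε hε
    have h1 := (abs_le.1 (hM M le_rfl x)).2
    have h2 := hflo (φ M) x
    linarith
  have hg1 : ∀ x ∉ bal n, g x = 0 := by
    intro x hx
    refine abs_eq_zero.1 (le_antisymm ?_ (abs_nonneg _))
    refine le_of_forall_pos_le_add fun ε hε => ?_
    obtain ⟨M, hM⟩ := hgu ε hε
    have h1 := hM M le_rfl x
    rw [hf, hχz x hx, zero_mul, zero_sub, abs_neg] at h1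
    linarith
  obtain ⟨ψi, hψi⟩ : ∃ ψi : V n → ℝ, ∀ x, ψi x = 1 + g x := ⟨_, fun _ => rfl⟩
  have hψie : ψi = fun x => 1 + g x := funext hψi
  have hψiP : SmP ψi := ⟨by rw [hψie]; exact contDiff_const.add hgs, fun x => by
    rw [hψi]; exact lt_of_lt_of_le hμ (hglo x)⟩
  have hsm : ∀ m, SmM (s m) := fun m i j => by
    have h : (fun x => s m x i j) = fun x => ψ m x * t m x i j := by
      funext x; rw [(hNc m).eq x]; rfl
    rw [h]; exact (hNc m).pψ.1.mul ((hNc m).st i j)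
  -- the energies of the limit
  have hSEi : SE (Om ρ) (sc fun _ => 1) (sc ψi) := by
    refine hEN hn hN ρ hρ (fun m => sc (σ (φ m))) (fun m => s (φ m)) (fun m => A₁ (φ m))
      (fun m => A₂ (φ m)) (fun _ => 1) ψi μ (fun m => smM_sc442 (hσa _).1.1) (fun m => hsm _)
      (fun m => symm_sc442 _) (fun m x => ?_) (fun m => (hAa _).1) (fun m => (hAa _).2.1)
      contDiff_const hψiP.1 hμ (fun x _ => hμ1) (fun x _ => by rw [hψi]; exact hglo x)
      (fun ε hε => ?_) (fun ε hε => ?_) (fun ε hε => ?_) (fun ε hε => ?_) fun m => hS _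
    · rw [(hNc (φ m)).eq x]
      exact ((hNc (φ m)).sy x).smul _
    · obtain ⟨M, -, hM⟩ := hle 0 ε hε
      refine ⟨M, fun m hm x _ i j => ?_⟩
      have h1 := (hσa (φ m)).2.2 0 (Nat.zero_le _) x
      rw [norm_iteratedFDeriv_zero, Real.norm_eq_abs] at h1
      have h2 := hM (φ m) (hm.trans (hφm m))
      have h3 : sc (σ (φ m)) x i j - sc (fun _ => 1) x i j = (σ (φ m) x - 1) * dl i j := by
        simp only [sc, Matrix.smul_apply, smul_eq_mul]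
        ring
      have h4 : |(dl i j : ℝ)| ≤ 1 := by
        rw [dl, Matrix.one_apply]; split_ifs <;> simp
      rw [h3, abs_mul]
      calc _ ≤ |σ (φ m) x - 1| * 1 := mul_le_mul_of_nonneg_left h4 (abs_nonneg _)
        _ ≤ ε := by linarith
    · obtain ⟨M1, hM1⟩ := hgu (ε / 2) (by positivity)
      obtain ⟨M2, hM2⟩ := exists_nat_gt (B 0 / (ε / 2))
      refine ⟨max M1 M2, fun m hm x hx i j => ?_⟩
      have hx0 : 0 ≤ ρ x := (show 0 < ρ x from hx).le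
      have h1 := hM1 m ((le_max_left _ _).trans hm) x
      rw [hf, hχone x hx0, one_mul] at h1
      have h2 := (hNc (φ m)).nt i j x
      have h3 : B 0 * (1 / (((φ m : ℕ) : ℝ) + 1)) ≤ ε / 2 := by
        have h4 : (M2 : ℝ) ≤ ((φ m : ℕ) : ℝ) := by
          exact_mod_cast ((le_max_right _ _).trans hm).trans (hφm m)
        rw [mul_one_div, div_le_iff₀ (by positivity)]
        rw [div_lt_iff₀ (by positivity)] at hM2
        nlinarith
      have h5 : s (φ m) x i j - sc ψi x i j = ψ (φ m) x * (t (φ m) x i j - dl i j) +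
          (ψ (φ m) x - 1 - g x) * dl i j := by
        rw [(hNc (φ m)).eq x]
        simp only [sc, Matrix.smul_apply, smul_eq_mul, hψi]
        ring
      have h6 : |ψ (φ m) x * (t (φ m) x i j - dl i j)| ≤ B 0 * (1 / (((φ m : ℕ) : ℝ) + 1)) := by
        rw [abs_mul, abs_of_pos ((hNc (φ m)).pψ.2 x)]
        exact mul_le_mul (hψhi _ _) h2 (abs_nonneg _) hB0.le
      have h7 : |(ψ (φ m) x - 1 - g x) * dl i j| ≤ ε / 2 := by
        rw [abs_mul]
        have h8 : |(dl i j : ℝ)| ≤ 1 := by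
          rw [dl, Matrix.one_apply]; split_ifs <;> simp
        calc _ ≤ ε / 2 * 1 := mul_le_mul h1 h8 (abs_nonneg _) (by positivity)
          _ = ε / 2 := mul_one _
      show |s (φ m) x i j - sc ψi x i j| ≤ ε
      rw [h5]
      exact (abs_add_le _ _).trans (by linarith)
    · obtain ⟨M, -, hM⟩ := hle 0 ε hε
      refine ⟨M, fun m hm x _ i α β => ?_⟩
      have h1 := (hAa (φ m)).2.2.2.1 i α β 0 (Nat.zero_le _) x
      rw [norm_iteratedFDeriv_zero] at h1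
      exact h1.trans (hM (φ m) (hm.trans (hφm m)))
    · obtain ⟨M, -, hM⟩ := hle 0 ε hε
      refine ⟨M, fun m hm x _ i α β => ?_⟩
      exact ((hAa (φ m)).2.2.2.2.2 i x α β).trans (hM (φ m) (hm.trans (hφm m)))
  have hψσ : ∀ x, 0 ≤ ρ x → ψi x = 1 := hISO hn ρ hρ hρb (fun _ => 1) ψi
    ⟨contDiff_const, fun _ => one_pos⟩ hψiP (fun _ _ => rfl)
    (fun x hx => by rw [hψi, hg1 x hx, add_zero]) hSEi
  -- the modified tensors
  obtain ⟨s', hs'⟩ : ∃ s' : ℕ → MF n, ∀ m x i j, s' m x i j = dl i j +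
      ((1 + f m x) * (χ x * (t m x i j - dl i j)) + (f m x - g x) * dl i j) :=
    ⟨fun m x => Matrix.of fun i j => dl i j +
      ((1 + f m x) * (χ x * (t m x i j - dl i j)) + (f m x - g x) * dl i j), fun _ _ _ _ => rfl⟩
  have hs'on : ∀ m x, 0 ≤ ρ x → s' m x = s m x := by
    intro m x hx
    ext i j
    have h1 : g x = 0 := by have h := hψσ x hx; rw [hψi] at h; linarith
    rw [hs', hf, hχone x hx, (hNc m).eq x, h1]
    simp only [Matrix.smul_apply, smul_eq_mul]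
    ring
  have hτs : ∀ m i j, ContDiff ℝ ∞ (fun x => χ x * (t m x i j - dl i j)) := fun m i j =>
    hχs.mul (((hNc m).st i j).sub contDiff_const)
  have hs'sm : ∀ m, SmM (s' m) := by
    intro m i j
    have h : (fun x => s' m x i j) = fun x => dl i j +
      ((1 + f m x) * (χ x * (t m x i j - dl i j)) + (f m x - g x) * dl i j) :=
      funext fun x => hs' m x i j
    rw [h]
    exact contDiff_const.add (((contDiff_const.add (hfs m)).mul (hτs m i j)).add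
      (((hfs m).sub hgs).mul contDiff_const))
  have hs'sy : ∀ m x, (s' m x).IsSymm := by
    intro m x
    ext i j
    rw [Matrix.transpose_apply, hs', hs', ((hNc m).sy x).apply i j]
    have h1 : (dl i j : ℝ) = dl j i := by
      simp only [dl, Matrix.one_apply, eq_comm]
    rw [h1]
  obtain ⟨εs, hεse⟩ : ∃ ε : ℝ, ε = min εB (1 / (2 * ((n : ℝ) + 1))) := ⟨_, rfl⟩
  have hεs : 0 < εs := hεse ▸ lt_min hεB (by positivity)
  have hεs1 : εs ≤ εB := hεse ▸ min_le_left _ _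
  have hεs2 : εs ≤ 1 / (2 * ((n : ℝ) + 1)) := hεse ▸ min_le_right _ _
  -- constants
  obtain ⟨M0, hM0⟩ := interp hIN n kB
  obtain ⟨W, hW⟩ : ∃ W : ℝ, W = 2 ^ kB * (X kB * Y kB) := ⟨_, rfl⟩
  have hW0 : 0 ≤ W := by
    rw [hW]
    have h1 := hX1 kB
    have h2 := hY1 kB
    positivity
  obtain ⟨A0, hA0⟩ : ∃ A : ℝ, A = 2 ^ kB := ⟨_, rfl⟩
  have hA0p : 0 < A0 := by rw [hA0]; positivity
  obtain ⟨τ, hτe⟩ : ∃ τ : ℝ, τ = εs / (2 * A0 * (1 + W)) := ⟨_, rfl⟩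
  have hτ : 0 < τ := by rw [hτe]; positivity
  obtain ⟨ε3, hε3, hM0⟩ := hM0 (2 ^ M0 * (X M0 * Y M0)) (by
    have h1 := hX1 M0
    have h2 := hY1 M0
    have h3 : (1 : ℝ) ≤ 2 ^ M0 := one_le_pow₀ (by norm_num)
    have h4 : 1 ≤ X M0 * Y M0 := by nlinarith
    nlinarith) τ hτ
  obtain ⟨M0', hM0'⟩ := interp hIN n kB
  obtain ⟨ε3', hε3', hM0'⟩ := hM0' (2 ^ M0' * (X M0' * Y M0')) (by
    have h1 := hX1 M0'
    have h2 := hY1 M0'
    have h3 : (1 : ℝ) ≤ 2 ^ M0' := one_le_pow₀ (by norm_num)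
    have h4 : 1 ≤ X M0' * Y M0' := by nlinarith
    nlinarith) εB hεB
  obtain ⟨M5, -, hM5⟩ := hle 0 ε3' hε3'
  obtain ⟨M1, hM1⟩ := hgc kB (εs / (2 * A0)) (by positivity)
  obtain ⟨M3, hM3⟩ := exists_nat_one_div_lt hε3
  obtain ⟨M4, -, hM4⟩ := hle 0 εB hεB
  obtain ⟨m, hm⟩ : ∃ m, m = max (max M1 (max M3 M4)) (max M0 kB) + (M0' + M5) :=
    ⟨_, rfl⟩
  have m1 : M1 ≤ m := by omega
  have m3 : M3 ≤ m := by omega
  have m4 : M4 ≤ m := by omega
  have m0 : M0 ≤ m := by omega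
  have mk : kB ≤ m := by omega
  have m0' : M0' ≤ m := by omega
  have m5 : M5 ≤ m := by omega
  have mφ := hφm m
  have hdl : ∀ i j : Fin n, |(dl i j : ℝ)| ≤ 1 := fun i j => by
    rw [dl, Matrix.one_apply]; split_ifs <;> simp
  have hτc : ∀ i j, Cl kB τ (fun x => χ x * (t (φ m) x i j - dl i j)) := by
    intro i j
    refine (cl_cx (hτs _ i j)).1 (hM0 _ (Complex.ofRealCLM.contDiff.comp (hτs (φ m) i j))
      (fun x hx => ?_) (fun x => ?_) ((cl_cx (hτs _ i j)).2 ?_))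
    · show ((χ x * (t (φ m) x i j - dl i j) : ℝ) : ℂ) = 0
      rw [hχzc x hx, zero_mul]; simp
    · show ‖((χ x * (t (φ m) x i j - dl i j) : ℝ) : ℂ)‖ ≤ ε3
      rw [Complex.norm_real, Real.norm_eq_abs, abs_mul, abs_of_nonneg (hχ0 x)]
      have h1 := (hNc (φ m)).nt i j x
      have h2 : 1 / (((φ m : ℕ) : ℝ) + 1) ≤ 1 / ((M3 : ℝ) + 1) := by
        refine one_div_le_one_div_of_le (by positivity) ?_
        have : (M3 : ℝ) ≤ ((φ m : ℕ) : ℝ) := by exact_mod_cast m3.trans mφ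
        linarith
      calc χ x * |t (φ m) x i j - dl i j| ≤ 1 * (1 / (((φ m : ℕ) : ℝ) + 1)) :=
            mul_le_mul (hχ1 x) h1 (abs_nonneg _) zero_le_one
        _ ≤ ε3 := by linarith
    · exact hcut (dl i j) (hdl i j) (fun x => t (φ m) x i j) (φ m) M0 ((hNc (φ m)).st i j)
        ((hNc (φ m)).bt i j) (m0.trans mφ)
  have hcl' : ∀ i j, Cl kB εs (fun x => s' (φ m) x i j - dl i j) := by
    intro i j
    have h1 : Cl kB (1 + W) (fun x => 1 + f (φ m) x) := by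
      have h := cl_add (contDiff_const (c := (1 : ℝ))) (hfs (φ m)) (cl_const kB (1 : ℝ))
        (hfcl (φ m) kB (mk.trans mφ))
      rw [norm_one, ← hW] at h
      exact h
    have h2 := cl_mulR (contDiff_const.add (hfs (φ m))) (hτs (φ m) i j) h1 (hτc i j)
    have h3 := cl_mulR ((hfs (φ m)).sub hgs) contDiff_const (hM1 m m1) (cl_const kB (dl i j))
    have h4 := cl_add ((contDiff_const.add (hfs (φ m))).mul (hτs (φ m) i j))
      (((hfs (φ m)).sub hgs).mul contDiff_const) h2 h3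
    have h5 : (fun x => s' (φ m) x i j - dl i j) = fun x =>
        (1 + f (φ m) x) * (χ x * (t (φ m) x i j - dl i j)) + (f (φ m) x - g x) * dl i j := by
      funext x
      rw [hs']
      ring
    rw [h5]
    refine cl_mono h4 le_rfl ?_
    rw [← hA0, hτe]
    have h6 : A0 * ((1 + W) * (εs / (2 * A0 * (1 + W)))) = εs / 2 := by
      have : (1 + W) ≠ 0 := by positivity
      field_simp
    have h7 : A0 * (εs / (2 * A0) * ‖(dl i j : ℝ)‖) ≤ εs / 2 := by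
      have h8 : ‖(dl i j : ℝ)‖ ≤ 1 := hdl i j
      calc A0 * (εs / (2 * A0) * ‖(dl i j : ℝ)‖) ≤ A0 * (εs / (2 * A0) * 1) := by gcongr
        _ = εs / 2 := by field_simp
    linarith
  have hpd : ∀ x, (s' (φ m) x).PosDef := by
    intro x
    refine posDef_near (hs'sy _ x) (y := 1) (ε := εs) (fun i j => ?_) ?_
    · have h := hcl' i j 0 (Nat.zero_le _) x
      rw [norm_iteratedFDeriv_zero, Real.norm_eq_abs] at h
      rw [one_mul]
      exact h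
    · have h1 : (n : ℝ) * εs ≤ n * (1 / (2 * ((n : ℝ) + 1))) := by gcongr
      have h2 : (n : ℝ) * (1 / (2 * ((n : ℝ) + 1))) < 1 := by
        rw [mul_div_assoc', div_lt_iff₀ (by positivity)]
        nlinarith
      linarith
  have h4 := hM4 (φ m) (m4.trans mφ)
  obtain ⟨A', hA'⟩ : ∃ A' : Cn n N, ∀ i x, A' i x = ((χ x : ℝ) : ℂ) • A₂ (φ m) i x :=
    ⟨fun i x => ((χ x : ℝ) : ℂ) • A₂ (φ m) i x, fun _ _ => rfl⟩
  have hA'e : ∀ i α β, (fun x => A' i x α β) = fun x => ((χ x : ℝ) : ℂ) * A₂ (φ m) i x α β :=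
    fun i α β => funext fun x => by rw [hA']; rfl
  have hχc : ContDiff ℝ ∞ (fun x => ((χ x : ℝ) : ℂ)) := Complex.ofRealCLM.contDiff.comp hχs
  have sA' : SmU A' := by
    refine ⟨fun i α β => ?_, fun i x => ?_⟩
    · rw [hA'e]
      exact hχc.mul ((hAa (φ m)).2.1.1 i α β)
    · rw [hA', Matrix.conjTranspose_smul, (hAa (φ m)).2.1.2 i x, smul_neg]
      simp
  have hA'c : ∀ i, ClC kB εB (A' i) := by
    intro i α β
    refine hM0' _ (sA'.1 i α β) (fun x hx => ?_) (fun x => ?_) ?_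
    · show A' i x α β = 0
      rw [hA', hχzc x hx]; simp
    · show ‖A' i x α β‖ ≤ ε3'
      rw [hA', Matrix.smul_apply, norm_smul, Complex.norm_real, Real.norm_eq_abs,
        abs_of_nonneg (hχ0 x)]
      have h1 := (hAa (φ m)).2.2.2.2.2 i x α β
      have h2 := hM5 (φ m) (m5.trans mφ)
      calc χ x * ‖A₂ (φ m) i x α β‖ ≤ 1 * (1 / (((φ m : ℕ) : ℝ) + 1)) :=
            mul_le_mul (hχ1 x) h1 (norm_nonneg _) zero_le_one
        _ ≤ ε3' := by linarith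
    · rw [hA'e]
      have h1 : Cl M0' (X M0') (fun x => ((χ x : ℝ) : ℂ)) := (cl_cx hχs).2 (hXc M0')
      have h2 : Cl M0' (Y M0') (fun x => A₂ (φ m) i x α β) := by
        intro l hl x
        refine ((hAa (φ m)).2.2.2.2.1 i α β l ((hl.trans m0').trans mφ) x).trans ?_
        rw [hY]
        have h3 := Finset.single_le_sum (f := fun i => |B i|) (fun _ _ => abs_nonneg _)
          (Finset.mem_range.2 (by omega : l < M0' + 1))
        have h3' : |B l| ≤ ∑ i ∈ Finset.range (M0' + 1), |B i| := h3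
        linarith [le_abs_self (B l)]
      exact cl_mulC hχc ((hAa (φ m)).2.1.1 i α β) h1 h2
  have hSma : K.Sma kB εB (sc (σ (φ m))) (s' (φ m)) (A₁ (φ m)) A' :=
    ⟨fun i j => cl_sc442 hεB.le (cl_mono (hσa (φ m)).2.2 (mk.trans mφ) h4) i j,
      fun i j => cl_mono (hcl' i j) le_rfl hεs1,
      fun i a b => cl_mono ((hAa (φ m)).2.2.2.1 i a b) (mk.trans mφ) h4,
      hA'c⟩
  obtain ⟨Φ, Ψ, U, a1, a2, a3, a4, a5, a6, a7, a8, a9, a10, a11, a12⟩ := hK (σ (φ m))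
    (hσa (φ m)).1 (hσa (φ m)).2.1 (s' (φ m)) (hs'sm _) hpd (A₁ (φ m)) A' (hAa (φ m)).1
    sA' (hAa (φ m)).2.2.1 hSma
    (dat_congr2 hO (fun x hx => hs'on (φ m) x (le_of_lt hx)) (fun i x hx => by
      rw [hA', hχone x (le_of_lt hx)]; simp) (hS (φ m)).1)
  refine hC (φ m) ⟨Φ, Ψ, U, a1, a2, a3, a4, a5, a6, a7, fun x hx => ?_, a9, a10, a11,
    fun i x hx => ?_⟩
  · rw [← hs'on (φ m) x hx]
    exact a8 x hx
  · have h5 := a12 i x hx
    rw [hA', hχone x (le_of_lt hx)] at h5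
    simpa using h5

end Vale.Agent.P088.LR.G
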