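import Vale.Agent.P088.H738.G.Fin2
import Vale.Agent.P088.H833.JE.Defs
import Vale.Agent.P088.H798.KTop
import Vale.Agent.P088.H924.ESc

/-!
# P088, theorem JE: scaling, cut-off of the base, passage from tensors to metrics
-/

open MeasureTheory Set
open scoped ContDiff Matrix

noncomputable section

namespace Vale.Agent.P088.H738.GT

open Vale.Agent.P088.LR Vale.Agent.P088.LR.CF Vale.Agent.P088.LR.B Vale.Agent.P088.LR.H925
  Vale.Agent.P088.LR.H158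
open Vale.Agent.P088.LR.U
open Vale.Agent.P088.LR.K (Dat Sma)
open Vale.Agent.P088.LR.G (DatS)
open Vale.Agent.P088.H798
open Vale.Agent.P088.H924.ES (nc_met)

variable {n N : ℕ}

theorem dats_congr {Ω : Set (V n)} (hΩ : IsOpen Ω) {s₁ s₁' s₂ s₂' : MF n} {A₁ A₁' A₂ A₂' : Cn n N}
    (hs₁ : ∀ x ∈ Ω, s₁ x = s₁' x) (hA₁ : ∀ i, ∀ x ∈ Ω, A₁ i x = A₁' i x)
    (hs₂ : ∀ x ∈ Ω, s₂ x = s₂' x) (hA₂ : ∀ i, ∀ x ∈ Ω, A₂ i x = A₂' i x)
    (h : DatS Ω s₁ A₁ s₂ A₂) : DatS Ω s₁' A₁' s₂' A₂' := by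
  refine ⟨H798.dat_congr hΩ hs₁ hA₁ hs₂ hA₂ h.1, fun f hf => ?_⟩
  obtain ⟨u, hu, huf, hu0⟩ := h.2 f hf
  refine ⟨u, hu, huf, fun x hx => ?_⟩
  rw [← lav_congr hΩ hs₁ hA₁ u hx]; exact hu0 x hx

theorem dats_ps {t : ℝ} (ht : t ≠ 0) {Ω : Set (V n)} (hΩ : IsOpen Ω) {s₁ s₂ : MF n}
    {A₁ A₂ : Cn n N} (hs₁ : SmM s₁) (hs₂ : SmM s₂) (hA₁ : SmU A₁) (hA₂ : SmU A₂)
    (h : DatS Ω s₁ A₁ s₂ A₂) :
    DatS (ps t ⁻¹' Ω) (rs t s₁) (rA t A₁) (rs t s₂) (rA t A₂) := by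
  refine ⟨H798.dat_ps ht hΩ hs₁ hs₂ hA₁ hA₂ h.1, fun f hf => ?_⟩
  obtain ⟨v, hv, hvf, hv0⟩ := h.2 (fun x => f (ph t x)) (hf.comp (contDiff_ph t))
  have hvv : (fun x => v (ps t (ph t x))) = v := by
    funext x; rw [ps_ph ht]
  have hvc : ContDiff ℝ ∞ (fun y => v (ps t y)) := hv.comp (contDiff_ps t)
  refine ⟨fun y => v (ps t y), hvc, fun y hy => ?_, fun y hy => ?_⟩
  · have e1 := (hm (n := n) t ht).preimage_frontier Ω
    have e3 : (hm (n := n) t ht) ⁻¹' Ω = ps t ⁻¹' Ω := rfl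
    rw [e3] at e1
    rw [← e1] at hy
    have h1 := hvf (ps t y) hy
    simp only at h1 ⊢
    rw [h1, ph_ps ht]
  · have e := lav_ph ht hs₁ hA₁ hvc (ps t y)
    rw [hvv, hv0 _ hy, ph_ps ht] at e
    have h2 : (((t⁻¹ : ℝ) : ℂ) ^ 2) ≠ 0 := by
      refine pow_ne_zero 2 ?_
      exact_mod_cast inv_ne_zero ht
    exact (smul_eq_zero.1 e.symm).resolve_left h2

/-- **TOP2.** -/
theorem top2 (hDAT : G.RowDAT) (hF : G.RowFIN2) : JE.FinJE := by
  intro n N hn hN ρ hρ B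
  have hn1 : 1 ≤ n := by omega
  by_cases hB : 0 < B 0
  swap
  · refine ⟨0, 1, one_pos, fun c A₁ g A₂ _ hS _ => ?_⟩
    exfalso
    have h1 := hS.bg ⟨0, hn1⟩ ⟨0, hn1⟩ 0 (Nat.zero_le _) 0
    rw [norm_iteratedFDeriv_zero] at h1
    have h2 : 0 < g 0 ⟨0, hn1⟩ ⟨0, hn1⟩ := (hS.pd 0).diag_pos
    rw [Real.norm_eq_abs, abs_of_pos h2] at h1
    linarith
  obtain ⟨t, ht1, ρ', hρ', hoff, hpos, hz⟩ := exists_dom_bls hρ
  have ht0 : 0 < t := by linarith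
  -- the constants
  obtain ⟨B₁, hB₁e⟩ : ∃ B₁ : ℕ → ℝ, B₁ = fun l =>
    max 1 t ^ l * ∑ i ∈ Finset.range (l + 1), |B i| := ⟨_, rfl⟩
  have hsum : ∀ l, ∀ q ≤ l, |B q| ≤ ∑ i ∈ Finset.range (l + 1), |B i| := fun l q hq =>
    Finset.single_le_sum (f := fun i => |B i|) (fun i _ => abs_nonneg _)
      (Finset.mem_range.2 (by omega))
  have hBB : ∀ l, B 0 ≤ B₁ l := by
    intro l
    have hmt : (1 : ℝ) ≤ max 1 t ^ l := one_le_pow₀ (le_max_left _ _)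
    have h1 := hsum l 0 (Nat.zero_le _)
    rw [hB₁e]
    exact (le_abs_self _).trans (h1.trans (le_mul_of_one_le_left ((abs_nonneg _).trans h1) hmt))
  have hB₁ : ∀ l, 0 < B₁ l := fun l => hB.trans_le (hBB l)
  choose Cψ hCψ kψ using fun l =>
    H292.BM.bdd_met n l (B₁ l) (hB₁ l) (((n : ℝ) - 2) / (2 * n))
  choose Ct hCt kt using fun l => H292.BM.bdd_met n l (B₁ l) (hB₁ l) (1 / (n : ℝ))
  obtain ⟨Cm, hCm0, km⟩ := H188.DM.met_sm n (hB₁ 0)
  obtain ⟨B₂, hB₂⟩ : ∃ B₂ : ℕ → ℝ, ∀ l, B₂ l = Cψ l + Ct l + t * B₁ l := ⟨_, fun _ => rfl⟩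
  obtain ⟨k, ε, hε, hF⟩ := hF n N hn hN ρ' hρ' hoff B₂
  obtain ⟨Bχ, hBχ, hχ⟩ := chi_cl442 n k
  obtain ⟨δs, hδs, hsml⟩ := small_sgm442 n k hε
  have hM : 0 < max 1 t ^ k := by positivity
  obtain ⟨e1, he1⟩ : ∃ e1 : ℝ, e1 = δs / (2 ^ k * (Bχ * max 1 t ^ k)) := ⟨_, rfl⟩
  obtain ⟨e2, he2⟩ : ∃ e2 : ℝ, e2 = ε / (2 ^ k * (Bχ * (t * max 1 t ^ k))) := ⟨_, rfl⟩
  obtain ⟨e3, he3⟩ : ∃ e3 : ℝ, e3 = ε / (Cm + 1) := ⟨_, rfl⟩
  obtain ⟨e4, he4⟩ : ∃ e4 : ℝ, e4 = ε / t := ⟨_, rfl⟩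
  have hp1 : 0 < e1 := by rw [he1]; positivity
  have hp2 : 0 < e2 := by rw [he2]; positivity
  have hp3 : 0 < e3 := by rw [he3]; positivity
  have hp4 : 0 < e4 := by rw [he4]; positivity
  obtain ⟨e, he⟩ : ∃ e : ℝ, e = min (min e1 e2) (min e3 e4) := ⟨_, rfl⟩
  have hep : 0 < e := by rw [he]; exact lt_min (lt_min hp1 hp2) (lt_min hp3 hp4)
  have hl1 : e ≤ e1 := he ▸ (min_le_left _ _).trans (min_le_left _ _)
  have hl2 : e ≤ e2 := he ▸ (min_le_left _ _).trans (min_le_right _ _)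
  have hl3 : e ≤ e3 := he ▸ (min_le_right _ _).trans (min_le_left _ _)
  have hl4 : e ≤ e4 := he ▸ (min_le_right _ _).trans (min_le_right _ _)
  refine ⟨k, e, hep, fun c A₁ g A₂ hb hS hSD => ?_⟩
  obtain ⟨hc, hc0, hcC, hA₁, hA₁c⟩ := hb
  obtain ⟨hg, hgp, hcl', hdet, hnr, hA₂, hA₂b, hA₂n⟩ := hS
  have hOm : Om ρ' = ps t ⁻¹' Om ρ := by
    ext y
    exact hpos y
  have hO : IsOpen (Om ρ) := isOpen_lt continuous_const hρ.sm.continuous
  have hO' : IsOpen (Om ρ') := isOpen_lt continuous_const hρ'.sm.continuous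
  have hbd : Bornology.IsBounded (Om ρ) :=
    hρ.bd.subset fun x (hx : 0 < ρ x) => (show 0 ≤ ρ x from hx.le)
  have hbls : ∀ y, 0 ≤ ρ' y → ∑ j, (y j - 1 / 2) ^ 2 ≤ 1 / 64 := by
    intro y hy
    by_contra hc'
    have h1 := hoff y hc'
    linarith
  have hχρ : ∀ y, 0 ≤ ρ' y → chi442 y = 1 := fun y hy => chi_one442 (hbls y hy)
  have hg' : SmM (rs t g) := fun i j => (hg i j).comp (contDiff_ps t)
  have hgp' : ∀ x, (rs t g x).PosDef := fun x => hgp _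
  -- the scaled metric
  have hg'cl : ∀ l ≤ k, ∀ x, ∀ i j, ∀ q ≤ l,
      ‖iteratedFDeriv ℝ q (fun y => rs t g y i j) x‖ ≤ B₁ l := by
    intro l hl x i j q hq
    rw [hB₁e]
    refine (H188.iter_ps (hg i j) hq ht0 x).trans ?_
    refine mul_le_mul_of_nonneg_left ?_ (by positivity)
    exact (hcl' i j q (hq.trans hl) _).trans ((le_abs_self _).trans (hsum l q hq))
  have hNc := nc_met (k := k) (ε := e) hn1 hep.le
    (fun l g hg hd x h1 h2 => ⟨(kψ l g hg hd x h1 h2).1, (kψ l g hg hd x h1 h2).2.1⟩)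
    (fun l g hg hd x h1 h2 => (kt l g hg hd x h1 h2).2.2) km hg' hgp' hg'cl
    (fun l _ x => (inv_anti₀ hB (hBB l)).trans (hdet _))
    (fun i j x => hnr i j _)
  have hle : ∀ l, Cψ l + Ct l ≤ B₂ l := by
    intro l
    have := mul_nonneg ht0.le (hB₁ l).le
    rw [hB₂]; linarith
  have hNc' : E.Nc k B₂ ε (sg (rs t g))
      (fun x => (rs t g x).det ^ (((n : ℝ) - 2) / (2 * n)))
      (fun x => (rs t g x).det ^ (1 / (n : ℝ)) • (rs t g x)⁻¹) := by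
    refine ⟨hNc.pψ, hNc.st, hNc.sy, hNc.eq, fun l hl x => (hNc.bψ l hl x).trans (hle l),
      fun x => (hNc.iψ x).trans (hle 0), fun i j l hl x => (hNc.bt i j l hl x).trans (hle l),
      fun i j x => ?_⟩
    refine (hNc.nt i j x).trans ?_
    have h1 : Cm * e ≤ Cm * e3 := mul_le_mul_of_nonneg_left hl3 hCm0
    have h2 : Cm * e3 ≤ ε := by
      rw [he3, mul_div_assoc', div_le_iff₀ (by positivity)]
      nlinarith
    exact h1.trans h2
  -- the cut-off conformal factor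
  obtain ⟨c', hc'e⟩ : ∃ c' : V n → ℝ, c' = fun y => 1 + chi442 y * (c (ps t y) - 1) := ⟨_, rfl⟩
  have hcps : ContDiff ℝ ∞ (fun y => c (ps t y) - 1) :=
    (hc.comp (contDiff_ps t)).sub contDiff_const
  have hc's : ContDiff ℝ ∞ c' := by
    rw [hc'e]; exact contDiff_const.add (chi_smooth442.mul hcps)
  have hc'0 : ∀ y, 0 < c' y := by
    intro y
    have h1 := chi_nonneg442 y
    have h2 := chi_le_one442 y
    have h3 := hc0 (ps t y)
    have h4 : c' y = (1 - chi442 y) + chi442 y * c (ps t y) := by rw [hc'e]; ring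
    rw [h4]
    rcases h2.lt_or_eq with h5 | h5
    · have := mul_nonneg h1 h3.le
      linarith
    · rw [h5]; linarith
  have hc'1 : ∀ y ∉ bal n, c' y = 1 := by
    intro y hy
    rw [hc'e]
    show 1 + chi442 y * (c (ps t y) - 1) = 1
    rw [chi_zero442 hy]; ring
  have hc'on : ∀ y, 0 ≤ ρ' y → c' y = c (ps t y) := by
    intro y hy
    rw [hc'e]
    show 1 + chi442 y * (c (ps t y) - 1) = _
    rw [hχρ y hy]; ring
  have hfin : 2 ^ k * (Bχ * (max 1 t ^ k * e1)) = δs := by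
    rw [he1]; field_simp
  have hfin2 : 2 ^ k * (Bχ * (t * (max 1 t ^ k * e2))) = ε := by
    rw [he2]; field_simp
  have hc'c : Cl k δs (fun y => c' y - 1) := by
    have h1 := cl_mul442 chi_smooth442 hcps hχ
      (cl_ps (hc.sub contDiff_const) ht0
        (Vale.Agent.P088.LR.H72.cl_mono hcC hl1))
    rw [hfin] at h1
    have h2 : (fun y => c' y - 1) = fun y => chi442 y * (c (ps t y) - 1) := by
      funext y
      rw [hc'e]
      show 1 + chi442 y * (c (ps t y) - 1) - 1 = _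
      ring
    rw [h2]; exact h1
  have hσ1 : ∀ x ∉ bal n, sgm442 c' x = 1 := by
    intro x hx
    rw [sgm442, hc'1 x hx, one_pow, Real.sqrt_one, inv_one, one_mul]
  -- the connections
  have hcA1 : ∀ i, ClC k ε (cA t A₁ i) := by
    intro i
    have h1 : ClC k e2 (A₁ i) := fun a b => Vale.Agent.P088.LR.H72.cl_mono (hA₁c i a b) hl2
    have h2 := cA_cl hA₁ ht0 hχ h1
    rwa [hfin2] at h2
  have hcAon : ∀ A : Cn n N, ∀ i, ∀ y, 0 ≤ ρ' y → cA t A i y = rA t A i y := by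
    intro A i y hy
    show ((chi442 y : ℝ) : ℂ) • rA t A i y = _
    rw [hχρ y hy, Complex.ofReal_one, one_smul]
  have hcA0 : ∀ i, ∀ y ∉ bal n, cA t A₁ i y = 0 := by
    intro i y hy
    show ((chi442 y : ℝ) : ℂ) • rA t A₁ i y = 0
    rw [chi_zero442 hy, Complex.ofReal_zero, zero_smul]
  have hA2b : ∀ i α β, ∀ l ≤ k, ∀ x,
      ‖iteratedFDeriv ℝ l (fun x => rA t A₂ i x α β) x‖ ≤ B₂ l := by
    intro i α β l hl x
    have hs : ContDiff ℝ ∞ (fun y => A₂ i (ps t y) α β) := (hA₂.1 i α β).comp (contDiff_ps t)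
    have h1 : (fun x => rA t A₂ i x α β) = fun y => (t : ℝ) • A₂ i (ps t y) α β := by
      funext y
      show ((t : ℂ) • A₂ i (ps t y)) α β = _
      rw [Matrix.smul_apply, Complex.real_smul, smul_eq_mul]
    rw [h1, iteratedFDeriv_const_smul_apply' ((hs.of_le (by exact_mod_cast le_top)).contDiffAt),
      norm_smul, Real.norm_eq_abs, abs_of_pos ht0]
    have h2 := (H188.iter_ps (hA₂.1 i α β) le_rfl ht0 x (l := l) (k := l)).trans
      (mul_le_mul_of_nonneg_left ((hA₂b i α β l hl (ps t x)).trans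
        ((le_abs_self _).trans (hsum l l le_rfl))) (by positivity))
    have h3 := (hCψ l)
    have h4 := (hCt l)
    have h5 : t * ‖iteratedFDeriv ℝ l (fun y => A₂ i (ps t y) α β) x‖ ≤ t * B₁ l := by
      refine mul_le_mul_of_nonneg_left ?_ ht0.le
      rw [hB₁e]
      exact h2
    rw [hB₂]
    linarith
  have hA2n : ∀ i x α β, ‖rA t A₂ i x α β‖ ≤ ε := by
    intro i x α β
    show ‖((t : ℂ) • A₂ i (ps t x)) α β‖ ≤ ε
    rw [Matrix.smul_apply, norm_smul, Complex.norm_real, Real.norm_eq_abs, abs_of_pos ht0]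
    calc t * ‖A₂ i (ps t x) α β‖ ≤ t * e4 :=
          mul_le_mul_of_nonneg_left ((hA₂n i _ α β).trans hl4) ht0.le
      _ = ε := by rw [he4]; field_simp
  -- the data
  have h1M : SmM (sc c : MF n) := smM_sc442 hc
  have hdat : DatS (Om ρ) (sg (sc c)) A₁ (sg g) A₂ :=
    hDAT (Om ρ) hO hbd (sc c) g h1M hg (posDef_sc442 hc0) hgp A₁ A₂ hA₁ hA₂ hSD
  have hdat' : DatS (Om ρ') (sc (sgm442 c')) (cA t A₁) (sg (rs t g)) (rA t A₂) := by
    have h1 := dats_ps ht0.ne' hO (H442.smM_sg442 h1M (posDef_sc442 hc0)) (H442.smM_sg442 hg hgp)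
      hA₁ hA₂ hdat
    rw [← hOm] at h1
    refine dats_congr hO' (fun y hy => ?_) (fun i y hy => (hcAon A₁ i y (le_of_lt hy)).symm)
      (fun y hy => rfl) (fun i y hy => rfl) h1
    have hy' : 0 < ρ' y := hy
    rw [sg_sc442 hc0]
    show sgm442 c (ps t y) • (1 : Matrix (Fin n) (Fin n) ℝ) = sgm442 c' y • 1
    unfold sgm442
    rw [hc'on y hy'.le]
  obtain ⟨Φ, Ψ, U, hΦ, hΨ, h1, h2, h3, h4, h5, h6, hU, hUu, hU1, hUg⟩ := hF (sgm442 c')
    ⟨sgm_smooth442 hc's hc'0, sgm_pos442 hc'0⟩ hσ1 (hsml c' hc's hc'c) (sg (rs t g)) _ _ hNc'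
    (cA t A₁) (rA t A₂) (smU_cA hA₁ t) (smU_rA hA₂ t) hcA0 hcA1 hA2b hA2n hdat'
  -- the metric
  have hΦnn : ∀ y, 0 ≤ ρ' y → 0 ≤ ρ' (Φ y) := by
    intro y hy
    rcases hy.lt_or_eq with h | h
    · exact ((h4 y).2 h).le
    · rw [h3 y h.symm]; exact hy
  have hmet : ∀ y, 0 ≤ ρ' y → rs t g y = c (ps t (Φ y)) • ((Jm Φ y)ᵀ * Jm Φ y) := by
    intro y hy
    rw [← hc'on _ (hΦnn y hy)]
    have h7 := h6 y hy
    rw [← sg_sc442 hc'0] at h7
    obtain ⟨m, rfl⟩ : ∃ m, n = m + 3 := ⟨n - 3, by omega⟩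
    exact H695.iso_mat2 (Jm Φ y) (rs t g y) (hc'0 _) (h5 y) (hgp' y).det_pos h7
  have hρz : ∀ x, ρ x = 0 → ρ' (ph t x) = 0 := by
    intro x hx
    exact (hz _).2 (by rw [ps_ph ht0.ne']; exact hx)
  have hρp : ∀ x, 0 < ρ x → 0 < ρ' (ph t x) := by
    intro x hx
    exact (hpos _).2 (by rw [ps_ph ht0.ne']; exact hx)
  refine ⟨fun x => ps t (Φ (ph t x)), fun x => ps t (Ψ (ph t x)), fun x => U (ph t x),
    (contDiff_ps t).comp (hΦ.comp (contDiff_ph t)), (contDiff_ps t).comp (hΨ.comp (contDiff_ph t)),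
    ?_, ?_, ?_, ?_, ?_, ?_, ⟨?_, ?_, ?_⟩, ?_⟩
  · intro x
    show ps t (Ψ (ph t (ps t (Φ (ph t x))))) = x
    rw [ph_ps ht0.ne', h1, ps_ph ht0.ne']
  · intro x
    show ps t (Φ (ph t (ps t (Ψ (ph t x))))) = x
    rw [ph_ps ht0.ne', h2, ps_ph ht0.ne']
  · intro x hx
    show ps t (Φ (ph t x)) = x
    rw [h3 (ph t x) (hρz x hx), ps_ph ht0.ne']
  · intro x
    show 0 < ρ (ps t (Φ (ph t x))) ↔ _
    rw [← hpos, h4, hpos, ps_ph ht0.ne']
  · intro x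
    rw [Jm_scale hΦ ht0.ne']
    exact h5 _
  · intro x hx
    rw [Jm_scale hΦ ht0.ne']
    have hx' : 0 ≤ ρ' (ph t x) := by
      rcases hx.lt_or_eq with h | h
      · exact (hρp x h).le
      · exact (hρz x h.symm).ge
    have h7 := hmet (ph t x) hx'
    have e : rs t g (ph t x) = g x := by
      show g (ps t (ph t x)) = g x
      rw [ps_ph ht0.ne']
    rwa [e] at h7
  · intro a b
    exact (hU a b).comp (contDiff_ph t)
  · intro x _
    exact hUu _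
  · intro i x hx
    have hy : 0 < ρ' (ph t x) := hρp x hx
    have e1 := hUg i (ph t x) hy
    have e2 : rA t A₂ i (ph t x) = (t : ℂ) • A₂ i x := by
      show (t : ℂ) • A₂ i (ps t (ph t x)) = _
      rw [ps_ph ht0.ne']
    have e3 : pbF Φ (cA t A₁) i (ph t x)
        = (t : ℂ) • pbF (fun x => ps t (Φ (ph t x))) A₁ i x := by
      unfold pbF
      rw [Finset.smul_sum]
      refine Finset.sum_congr rfl fun j _ => ?_
      rw [hcAon A₁ j _ (hΦnn _ hy.le), Jm_scale hΦ ht0.ne', smul_comm]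
      rfl
    have e4 : pdm i U (ph t x) = (t : ℂ) • pdm i (fun x => U (ph t x)) x := by
      ext a b
      simp only [pdm, Matrix.of_apply, Matrix.smul_apply, smul_eq_mul]
      rw [pd_ph i ((hU a b).differentiable (by simp)) t x, Complex.real_smul, ← mul_assoc,
        ← Complex.ofReal_mul, mul_inv_cancel₀ ht0.ne', Complex.ofReal_one, one_mul]
    rw [e2, e3, e4, Matrix.mul_smul, Matrix.smul_mul, Matrix.mul_smul, ← smul_add] at e1
    exact smul_right_injective _ (by exact_mod_cast ht0.ne' : (t : ℂ) ≠ 0) e1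
  · intro x hx
    have h7 : ρ x = 0 := by
      have h8 : 0 ≤ ρ x := closure_minimal (fun y (hy : 0 < ρ y) => (show 0 ≤ ρ y from hy.le))
        (isClosed_le continuous_const hρ.sm.continuous) (frontier_subset_closure hx)
      rw [hO.frontier_eq] at hx
      exact le_antisymm (not_lt.1 fun h => hx.2 h) h8
    exact hU1 _ (hρz x h7)

end Vale.Agent.P088.H738.GT
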